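/-
Helper32 — S0175 project, abstract "Two-Shell" setting (pure measure theory, no geometry).

Parameters `(b, t) : Y × ℝ`, `t` = an angle measured in turns (everything is 1-periodic in `t`).
`ΦA (b,t)` = the "apex" of triangle `(b,t)`, `ΦB (b,t)` and `ΦB (b, t + g b)` its two base vertices.
The marginal is `tsμ = Λ.map ΦA + 2 • Λ.map ΦB`, `Λ = ν ⊗ Lebesgue|[0,1)`.
-/
import Mathlib
import Crest.Prelude.Def_MultiMarginal

set_option autoImplicit false
open MeasureTheory Set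
open scoped ENNReal

namespace Crest.Agent.Helper32

/-- the base measure on parameters `(b, t)`, `t ∈ [0,1)` an angle in turns -/
noncomputable def tsΛ {Y : Type*} [MeasurableSpace Y] (ν : Measure Y) : Measure (Y × ℝ) :=
  ν.prod (volume.restrict (Ico (0:ℝ) 1))

/-- the two-shell marginal -/
noncomputable def tsμ {E Y : Type*} [MeasurableSpace E] [MeasurableSpace Y] (ν : Measure Y)
    (ΦA ΦB : Y × ℝ → E) : Measure E :=
  (tsΛ ν).map ΦA + (2 : ℝ≥0∞) • (tsΛ ν).map ΦB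

/-- the support of the two-shell marginal -/
def tsS {E Y : Type*} (ΦA ΦB : Y × ℝ → E) : Set E := range ΦA ∪ range ΦB

/-- the optimal value -/
noncomputable def tsVal {E Y : Type*} [MeasurableSpace E] [MeasurableSpace Y] (ν : Measure Y)
    (ΦA ΦB : Y × ℝ → E) (u : E → ℝ) : ℝ≥0∞ :=
  ENNReal.ofReal (3 * ∫ x, u x ∂(tsμ ν ΦA ΦB))

/-- Hypotheses of the abstract two-shell theorem. -/
structure TwoShellHyp {E Y : Type*} [MeasurableSpace E] [MeasurableSpace Y]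
    (ν : Measure Y) (ΦA ΦB : Y × ℝ → E) (g : Y → ℝ) (c : E × E × E → ℝ≥0∞) (u : E → ℝ) : Prop where
  mass : ν univ = 1 / 3
  measA : Measurable ΦA
  measB : Measurable ΦB
  perA : ∀ b t, ΦA (b, t + 1) = ΦA (b, t)
  perB : ∀ b t, ΦB (b, t + 1) = ΦB (b, t)
  injA : ∀ b t b' t', t ∈ Ico (0:ℝ) 1 → t' ∈ Ico (0:ℝ) 1 → ΦA (b, t) = ΦA (b', t') → b = b' ∧ t = t'
  injB : ∀ b t b' t', t ∈ Ico (0:ℝ) 1 → t' ∈ Ico (0:ℝ) 1 → ΦB (b, t) = ΦB (b', t') → b = b' ∧ t = t'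
  disj : ∀ p q, ΦA p ≠ ΦB q
  measg : Measurable g
  measc : Measurable c
  symm12 : ∀ x y z, c (y, x, z) = c (x, y, z)
  symm23 : ∀ x y z, c (x, z, y) = c (x, y, z)
  measu : Measurable u
  bddu : ∃ M : ℝ, ∀ p, |u (ΦA p)| ≤ M ∧ |u (ΦB p)| ≤ M
  /-- admissibility of the potential on the support -/
  adm : ∀ x y z, x ∈ tsS ΦA ΦB → y ∈ tsS ΦA ΦB → z ∈ tsS ΦA ΦB →
    ENNReal.ofReal (u x + u y + u z) ≤ c (x, y, z)
  /-- contact on the triangles -/
  contact : ∀ b t, c (ΦA (b, t), ΦB (b, t), ΦB (b, t + g b)) =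
    ENNReal.ofReal (u (ΦA (b, t)) + u (ΦB (b, t)) + u (ΦB (b, t + g b)))
  contact_nonneg : ∀ b t, 0 ≤ u (ΦA (b, t)) + u (ΦB (b, t)) + u (ΦB (b, t + g b))
  /-- rigidity 1: a contact triple never has two apex points (in positions 1,2) -/
  rigAA : ∀ p q z, z ∈ tsS ΦA ΦB →
    c (ΦA p, ΦA q, z) ≠ ENNReal.ofReal (u (ΦA p) + u (ΦA q) + u z)
  /-- rigidity 2: in a contact triple (base vertex, apex, ·) the apex is one of the two apexes
  determined by the base vertex -/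
  rigBA : ∀ b t q z, z ∈ tsS ΦA ΦB →
    c (ΦB (b, t), ΦA q, z) = ENNReal.ofReal (u (ΦB (b, t)) + u (ΦA q) + u z) →
    ΦA q = ΦA (b, t) ∨ ΦA q = ΦA (b, t - g b)
  /-- uniform continuity of the cost near the contact triangles, in the two base angles -/
  cont : ∀ ε : ℝ, 0 < ε → ∃ η : ℝ, 0 < η ∧ ∀ b t t₁ t₂, |t₁ - t| ≤ η → |t₂ - (t + g b)| ≤ η →
    c (ΦA (b, t), ΦB (b, t₁), ΦB (b, t₂)) ≤
      c (ΦA (b, t), ΦB (b, t), ΦB (b, t + g b)) + ENNReal.ofReal ε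

/-! ### Arc maps on the circle `ℝ/ℤ` (used for the Monge approximations, package TS-0/TS-4)

The circle is cut into `N` arcs `[j/N, (j+1)/N)`; each arc is cut into a first half (type 1) and
a second half (type 2). -/

/-- the union of the first halves of the arcs (a `1/N`-periodic subset of `ℝ`) -/
def arcT1 (N : ℕ) : Set ℝ := {t | Int.fract ((N:ℝ) * t) < 1 / 2}

/-- compress every arc onto its first half -/
noncomputable def arcC1 (N : ℕ) (t : ℝ) : ℝ :=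
  ((⌊(N:ℝ) * t⌋ : ℝ) + Int.fract ((N:ℝ) * t) / 2) / N

/-- compress every arc onto its second half -/
noncomputable def arcC2 (N : ℕ) (t : ℝ) : ℝ :=
  ((⌊(N:ℝ) * t⌋ : ℝ) + 1 / 2 + Int.fract ((N:ℝ) * t) / 2) / N

/-- stretch each half arc onto its whole arc -/
noncomputable def arcD (N : ℕ) (t : ℝ) : ℝ :=
  ((⌊(N:ℝ) * t⌋ : ℝ) + Int.fract (2 * (N:ℝ) * t)) / N

end Crest.Agent.Helper32
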