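/-
Helper32 — S0175 project, Part II (geometry): DEFINITIONS of the concrete two-shell instance on the
model space `MS k = ℂ × ℝ^k` (`k = d - 2`).  No proofs here.  Plan: notes/S0175_plan.md.

Shape parameter `w ∈ (wMin s, w2)`, `w2 < 1/√2`; `e = 1/(s+2)`.
Triangle of shape `w`: apex–base side `shL12`, base side `shL23`.
-/
import Mathlib
import Crest.Prelude.Def_MultiMarginal
import Crest.Agent.Helper32.TwoShellDefs

set_option autoImplicit false
open MeasureTheory Set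
open scoped ENNReal
open Crest.AnalysisR.OT

namespace Crest.Agent.Helper32

/-- the model space `ℂ × ℝ^k` (sup-norm product; its Euclidean distance is `dM`) -/
abbrev MS (k : ℕ) : Type := ℂ × EuclideanSpace ℝ (Fin k)

/-- Euclidean distance on the model space -/
noncomputable def dM {k : ℕ} (p q : MS k) : ℝ :=
  Real.sqrt (‖p.1 - q.1‖ ^ 2 + ‖p.2 - q.2‖ ^ 2)

noncomputable def pairCostM {k : ℕ} (s : ℝ) (p q : MS k) : ℝ≥0∞ :=
  ENNReal.ofReal (dM p q) ^ (-s)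

/-- the three-particle cost on the model space (mirror of `tripleCost`) -/
noncomputable def tripleCostM {k : ℕ} (s : ℝ) (p : MS k × MS k × MS k) : ℝ≥0∞ :=
  pairCostM s p.1 p.2.1 + pairCostM s p.1 p.2.2 + pairCostM s p.2.1 p.2.2

/-! ### shape functions -/

noncomputable def shP (w : ℝ) : ℝ := 1 - 2 * w ^ 2

/-- apex–base side length -/
noncomputable def shL12 (s w : ℝ) : ℝ := (shP w) ^ (-(1 / (s + 2)))

/-- base side length -/
noncomputable def shL23 (s w : ℝ) : ℝ := w ^ (-(2 / (s + 2)))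

/-- the cost of the triangle of shape `w` -/
noncomputable def shG (s w : ℝ) : ℝ := 2 * (shP w) ^ (s / (s + 2)) + w ^ (2 * s / (s + 2))

/-- squared height -/
noncomputable def shH (s w : ℝ) : ℝ := (shL12 s w) ^ 2 - (shL23 s w) ^ 2 / 4

noncomputable def shC (w : ℝ) : ℝ := shP w / (2 * w ^ 2 + 1)

/-- `‖y.1‖² + 4‖y.2‖²` for a base vertex `y` of a triangle of shape `w` -/
noncomputable def shb (s w : ℝ) : ℝ := (shL23 s w) ^ 2 / 4 + (shP w) ^ 2 * shH s w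

/-- apex equation: the apex `x` of a triangle of shape `w` satisfies
`shF s w ‖x.1‖² ‖x.2‖² = 0` -/
noncomputable def shF (s w ζ e : ℝ) : ℝ :=
  ζ / (4 * w ^ 4) + 4 * e / (2 * w ^ 2 + 1) ^ 2 - shH s w

/-- the degenerate shape (`shH s (wMin s) = 0`) -/
noncomputable def wMin (s : ℝ) : ℝ := Real.sqrt (1 / ((2:ℝ) ^ (s + 2) + 2))

/-! ### potentials -/

noncomputable def UB {k : ℕ} (s : ℝ) (p : MS k) : ℝ := -(s / 2) * (‖p.1‖ ^ 2 + 2 * ‖p.2‖ ^ 2)

noncomputable def u1 {k : ℕ} (s w : ℝ) (p : MS k) : ℝ :=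
  (1 + s / 2) * shG s w -
    (s / 2) * shP w * (‖p.1‖ ^ 2 / w ^ 2 + 4 * ‖p.2‖ ^ 2 / (2 * w ^ 2 + 1))

/-! ### root functions -/

open Classical in
/-- the shape `w ∈ (wMin s, w2)` with `shF s w ζ e = 0` (junk value `wMin s` if there is none) -/
noncomputable def wroot (s w2 ζ e : ℝ) : ℝ :=
  if h : ∃ w, wMin s < w ∧ w < w2 ∧ shF s w ζ e = 0 then Classical.choose h else wMin s

/-- the shape of the triangle with apex `x` -/
noncomputable def wA {k : ℕ} (s w2 : ℝ) (x : MS k) : ℝ := wroot s w2 (‖x.1‖ ^ 2) (‖x.2‖ ^ 2)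

open Classical in
/-- inverse of `shb s` on `(wMin s, w2)` (junk value `wMin s` outside the image) -/
noncomputable def Winv (s w2 τ : ℝ) : ℝ :=
  if h : ∃ w, wMin s < w ∧ w < w2 ∧ shb s w = τ then Classical.choose h else wMin s

/-! ### the contact maps -/

/-- complex factor: base vertex (in-plane part) = apex (in-plane part) times `betaC`;
`r` = modulus of the in-plane part of the apex, `σ = ±1` -/
noncomputable def betaC (s w σ r : ℝ) : ℂ := ⟨-(shP w / (2 * w ^ 2)), σ * shL23 s w / (2 * r)⟩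

/-- base vertex number `σ = ±1` of the triangle of shape `w` with apex `x` -/
noncomputable def bvert {k : ℕ} (s w σ : ℝ) (x : MS k) : MS k :=
  (x.1 * betaC s w σ ‖x.1‖, -(shC w) • x.2)

noncomputable def bplus {k : ℕ} (s w2 : ℝ) (x : MS k) : MS k := bvert s (wA s w2 x) 1 x

noncomputable def bminus {k : ℕ} (s w2 : ℝ) (x : MS k) : MS k := bvert s (wA s w2 x) (-1) x

/-- left inverse of `bplus` -/
noncomputable def psiPlus {k : ℕ} (s w2 : ℝ) (y : MS k) : MS k :=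
  (y.1 / betaC s (Winv s w2 (‖y.1‖ ^ 2 + 4 * ‖y.2‖ ^ 2)) 1
      (2 * (Winv s w2 (‖y.1‖ ^ 2 + 4 * ‖y.2‖ ^ 2)) ^ 2 *
        Real.sqrt (‖y.1‖ ^ 2 - (shL23 s (Winv s w2 (‖y.1‖ ^ 2 + 4 * ‖y.2‖ ^ 2))) ^ 2 / 4) /
        shP (Winv s w2 (‖y.1‖ ^ 2 + 4 * ‖y.2‖ ^ 2))),
   -(1 / shC (Winv s w2 (‖y.1‖ ^ 2 + 4 * ‖y.2‖ ^ 2))) • y.2)

/-- rotation of the plane factor by `t` turns -/
noncomputable def rotM {k : ℕ} (t : ℝ) (x : MS k) : MS k :=
  (Complex.exp (2 * (Real.pi : ℂ) * (t : ℂ) * Complex.I) * x.1, x.2)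

/-- the unit complex number with `bminus x = bplus (omegaG x * x.1, x.2)` -/
noncomputable def omegaG {k : ℕ} (s w2 : ℝ) (x : MS k) : ℂ :=
  betaC s (wA s w2 x) (-1) ‖x.1‖ / betaC s (wA s w2 x) 1 ‖x.1‖

/-- the domain of the contact maps (an open subset of `MS k`) -/
def Adom {k : ℕ} (s w2 : ℝ) : Set (MS k) :=
  {x | x.1 ≠ 0 ∧ shF s w2 (‖x.1‖ ^ 2) (‖x.2‖ ^ 2) < 0}

/-! ### the concrete two-shell data -/

/-- the open solid torus carrying the apex part of the marginal -/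
def torus {k : ℕ} (ε : ℝ) : Set (MS k) := {x | (‖x.1‖ ^ 2 - 2 * ε) ^ 2 + ‖x.2‖ ^ 2 < ε ^ 2}

/-- the parameter space `Y` : points `(r, ξ)`, `r > 0`, of the torus with in-plane angle `0` -/
def Ybase (k : ℕ) (ε : ℝ) : Set (ℝ × EuclideanSpace ℝ (Fin k)) :=
  {b | 0 < b.1 ∧ (b.1 ^ 2 - 2 * ε) ^ 2 + ‖b.2‖ ^ 2 < ε ^ 2}

noncomputable def PhiA {k : ℕ} (ε : ℝ) (p : ↥(Ybase k ε) × ℝ) : MS k :=
  rotM p.2 ((p.1.1.1 : ℂ), p.1.1.2)

noncomputable def PhiB {k : ℕ} (s w2 ε : ℝ) (p : ↥(Ybase k ε) × ℝ) : MS k :=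
  bplus s w2 (PhiA ε p)

/-- the angle (in turns) between the two base vertices -/
noncomputable def gG {k : ℕ} (s w2 ε : ℝ) (b : ↥(Ybase k ε)) : ℝ :=
  Complex.arg (omegaG s w2 (((b.1.1 : ℝ) : ℂ), b.1.2)) / (2 * Real.pi)

open Classical in
/-- the potential -/
noncomputable def uG {k : ℕ} (s w2 ε : ℝ) (x : MS k) : ℝ :=
  if x ∈ torus ε then u1 s (wA s w2 x) x else UB s x

/-- unnormalised apex density (`= Θ²`, `Θ` a smooth bump supported on the closed torus) -/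
noncomputable def rhoA0 {k : ℕ} (ε : ℝ) (x : MS k) : ℝ :=
  (expNegInvGlue (ε ^ 2 - (‖x.1‖ ^ 2 - 2 * ε) ^ 2 - ‖x.2‖ ^ 2)) ^ 2

/-- apex density, total mass `1/3` -/
noncomputable def rhoA {k : ℕ} (ε : ℝ) (x : MS k) : ℝ :=
  rhoA0 ε x / (3 * ∫ y : MS k, rhoA0 ε y)

noncomputable def baseMap {k : ℕ} (x : MS k) : ℝ × EuclideanSpace ℝ (Fin k) := (‖x.1‖, x.2)

/-- the base measure `ν` on `Y` -/
noncomputable def nuG (k : ℕ) (ε : ℝ) : Measure ↥(Ybase k ε) :=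
  Measure.comap Subtype.val ((measOfDensity (rhoA (k := k) ε)).map baseMap)

/-- admissible parameters -/
structure GoodParams (s w2 ε : ℝ) : Prop where
  hs : 0 < s
  hw2 : wMin s < w2
  hw2' : 2 * w2 ^ 2 < 1
  hε : 0 < ε
  hε1 : ε ≤ 1 / 16
  /-- the closed torus lies in `Adom` -/
  hdom : 3 * ε / (4 * w2 ^ 4) + 4 * ε ^ 2 / (2 * w2 ^ 2 + 1) ^ 2 < shH s w2
  /-- two points of the torus are so close that their pair cost beats any sum of potentials -/
  hdiam : 9 * (1 + s / 2) < (2 * Real.sqrt (3 * ε) + 2 * ε) ^ (-s)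

end Crest.Agent.Helper32
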