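/-
Helper32 — S0175 project: assembly of the hypotheses of the two-shell theorem for the concrete
instance from the field lemmas (packages DI, HY-a, HY-b, HC).
-/
import Crest.Agent.Helper32.GeomDefs
import Crest.Agent.Helper35.Geom.DIMass
import Crest.Agent.Helper24.Geom.Disj
import Crest.Agent.Helper42.Geom.RG3
import Crest.Agent.Helper76.Geom.HC
import Crest.Agent.Helper82.Geom.HYb
import Crest.Agent.Helper3.Geom.DIBasic
import Crest.Agent.Helper31.Geom.G1
import Crest.Agent.Helper91.OT3.Cost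

set_option autoImplicit false
open MeasureTheory Set Filter Topology
open scoped ENNReal ContDiff
open Crest.AnalysisR.OT

namespace Crest.Agent.Helper32

section HYa
variable {k : ℕ} (s w2 ε : ℝ) (hp : GoodParams s w2 ε)
include hp

theorem geomH_measB : Measurable (PhiB (k := k) s w2 ε) :=
  (Crest.Agent.Helper42.bplus_measurable s w2 hp.hs hp.hw2 hp.hw2').comp
    (Crest.Agent.Helper35.measurable_PhiA ε hp.hε)

omit hp in
theorem geomH_perA (b : ↥(Ybase k ε)) (t : ℝ) : PhiA ε (b, t + 1) = PhiA ε (b, t) :=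
  Crest.Agent.Helper3.rotM_add_one t _

omit hp in
theorem geomH_perB (b : ↥(Ybase k ε)) (t : ℝ) : PhiB s w2 ε (b, t + 1) = PhiB s w2 ε (b, t) := by
  unfold PhiB
  rw [geomH_perA]

theorem geomH_injB (b : ↥(Ybase k ε)) (t : ℝ) (b' : ↥(Ybase k ε)) (t' : ℝ) (ht : t ∈ Ico (0:ℝ) 1)
    (ht' : t' ∈ Ico (0:ℝ) 1) (h : PhiB s w2 ε (b, t) = PhiB s w2 ε (b', t')) : b = b' ∧ t = t' := by
  have h1 := (Crest.Agent.Helper42.psiPlus_bplus s w2 hp.hs hp.hw2 hp.hw2' (PhiA ε (b, t))
    (Crest.Agent.Helper76.PhiA_mem s w2 ε hp (b, t)).2).1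
  have h2 := (Crest.Agent.Helper42.psiPlus_bplus s w2 hp.hs hp.hw2 hp.hw2' (PhiA ε (b', t'))
    (Crest.Agent.Helper76.PhiA_mem s w2 ε hp (b', t')).2).1
  have h3 : PhiA ε (b, t) = PhiA ε (b', t') := by
    rw [← h1, ← h2]
    exact congrArg (psiPlus s w2) h
  exact Crest.Agent.Helper35.PhiA_inj ε hp.hε b t b' t' ht ht' h3

theorem geomH_measg : Measurable (gG (k := k) s w2 ε) := by
  unfold gG
  have h1 : Measurable (fun b : ↥(Ybase k ε) => ((((b.1.1 : ℝ) : ℂ), b.1.2) : MS k)) := by
    fun_prop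
  have h2 := (Crest.Agent.Helper42.omegaG_measurable (k := k) s w2 hp.hs hp.hw2 hp.hw2').comp h1
  exact (Complex.measurable_arg.comp h2).div_const _

omit hp in
theorem geomH_measc : Measurable (tripleCostM (k := k) s) := by
  have h1 : Measurable (fun p : MS k × MS k × MS k =>
      ((WithLp.toLp 2 p.1, WithLp.toLp 2 p.2.1, WithLp.toLp 2 p.2.2) :
        WithLp 2 (MS k) × WithLp 2 (MS k) × WithLp 2 (MS k))) := by
    have hm : Measurable (WithLp.toLp 2 : MS k → WithLp 2 (MS k)) :=
      (MeasurableEquiv.toLp 2 (MS k)).measurable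
    exact (hm.comp measurable_fst).prodMk
      ((hm.comp (measurable_fst.comp measurable_snd)).prodMk
        (hm.comp (measurable_snd.comp measurable_snd)))
  have h2 : tripleCostM (k := k) s = (fun q => tripleCost s q) ∘ (fun p : MS k × MS k × MS k =>
      ((WithLp.toLp 2 p.1, WithLp.toLp 2 p.2.1, WithLp.toLp 2 p.2.2) :
        WithLp 2 (MS k) × WithLp 2 (MS k) × WithLp 2 (MS k))) := by
    funext p
    obtain ⟨x, y, z⟩ := p
    exact Crest.Agent.Helper31.tripleCostM_eq s x y z
  rw [h2]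
  exact (Crest.Agent.Helper91.OT3.measurable_tripleCost s).comp h1

omit hp in
theorem dM_comm (p q : MS k) : dM p q = dM q p := by
  unfold dM
  rw [norm_sub_rev p.1 q.1, norm_sub_rev p.2 q.2]

omit hp in
theorem geomH_symm12 (x y z : MS k) : tripleCostM s (y, x, z) = tripleCostM s (x, y, z) := by
  simp only [tripleCostM, pairCostM]
  rw [dM_comm y x]
  ac_rfl

omit hp in
theorem geomH_symm23 (x y z : MS k) : tripleCostM s (x, z, y) = tripleCostM s (x, y, z) := by
  simp only [tripleCostM, pairCostM]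
  rw [dM_comm z y]
  ac_rfl

theorem geomH_measu : Measurable (uG (k := k) s w2 ε) := by
  have hw := Crest.Agent.Helper62.wA_measurable (k := k) s w2 hp.hs hp.hw2 hp.hw2'
  have ht : MeasurableSet (torus (k := k) ε) := by
    have : IsOpen (torus (k := k) ε) := isOpen_lt (by fun_prop) continuous_const
    exact this.measurableSet
  have h1 : Measurable (fun x : MS k => u1 s (wA s w2 x) x) := by
    unfold u1 shG shP
    have hn1 : Measurable (fun x : MS k => ‖x.1‖) := by fun_prop
    have hn2 : Measurable (fun x : MS k => ‖x.2‖) := by fun_prop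
    fun_prop
  have h2 : Measurable (UB (k := k) s) := by
    unfold UB
    fun_prop
  unfold uG
  exact Measurable.ite ht h1 h2

end HYa

theorem geom_hyp {k : ℕ} (s w2 ε : ℝ) (hp : GoodParams s w2 ε) :
    TwoShellHyp (nuG k ε) (PhiA ε) (PhiB s w2 ε) (gG s w2 ε) (tripleCostM s) (uG s w2 ε) where
  mass := Crest.Agent.Helper35.nuG_univ ε hp.hε
  measA := Crest.Agent.Helper35.measurable_PhiA ε hp.hε
  measB := geomH_measB s w2 ε hp
  perA := geomH_perA ε
  perB := geomH_perB s w2 ε
  injA := fun b t b' t' ht ht' h => Crest.Agent.Helper35.PhiA_inj ε hp.hε b t b' t' ht ht' h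
  injB := fun b t b' t' ht ht' h => geomH_injB s w2 ε hp b t b' t' ht ht' h
  disj := Crest.Agent.Helper24.geomH_disj s w2 ε hp
  measg := geomH_measg s w2 ε hp
  measc := geomH_measc s
  symm12 := geomH_symm12 s
  symm23 := geomH_symm23 s
  measu := geomH_measu s w2 ε hp
  bddu := Crest.Agent.Helper82.geomH_bddu s w2 ε hp
  adm := Crest.Agent.Helper82.geomH_adm s w2 ε hp
  contact := fun b t => (Crest.Agent.Helper82.geomH_contact s w2 ε hp b t).1
  contact_nonneg := fun b t => (Crest.Agent.Helper82.geomH_contact s w2 ε hp b t).2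
  rigAA := Crest.Agent.Helper82.geomH_rigAA s w2 ε hp
  rigBA := Crest.Agent.Helper82.geomH_rigBA s w2 ε hp
  cont := Crest.Agent.Helper76.geomH_cont s w2 ε hp

end Crest.Agent.Helper32
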