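/-
Helper32 — S0175 project: FINAL ASSEMBLY.
`model_goal` : the statement of S0175 on the model `WithLp 2 (ℂ × ℝ^k)`, from the abstract two-shell
theorem (Part I) applied to the concrete instance (Part II).
-/
import Crest.Agent.Helper32.GeomHyp
import Crest.Agent.Helper24.Geom.MS
import Crest.Agent.Helper24.Geom.DN
import Crest.Agent.Helper44.Geom.SHb
import Crest.Agent.Helper4.Geom.TR
import Crest.Agent.Helper35.TwoShell.Assembled
import Crest.Agent.Helper52.OT3.Transfer

set_option autoImplicit false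
open MeasureTheory Set Filter Topology
open scoped ENNReal ContDiff
open Crest.AnalysisR.OT

namespace Crest.Agent.Helper32

/-- push-forward of a density measure under a volume-preserving measurable equivalence -/
theorem measOfDensity_map_equiv {α β : Type*} [MeasureSpace α] [MeasureSpace β] (e : α ≃ᵐ β)
    (he : MeasurePreserving e volume volume) (ρ : α → ℝ) :
    (measOfDensity ρ).map e = measOfDensity (fun y => ρ (e.symm y)) := by
  ext s hs
  rw [Measure.map_apply e.measurable hs]
  unfold measOfDensity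
  rw [withDensity_apply _ hs, withDensity_apply _ (e.measurable hs)]
  have := he.setLIntegral_comp_preimage_emb e.measurableEmbedding
    (fun y => ENNReal.ofReal (ρ (e.symm y))) s
  simpa using this

/-- the measurable equivalence between the `L²` product and the bare product -/
noncomputable def eW (k : ℕ) : WithLp 2 (MS k) ≃ᵐ MS k := (MeasurableEquiv.toLp 2 (MS k)).symm

theorem eW_mp (k : ℕ) : MeasurePreserving (eW k) volume volume :=
  WithLp.volume_preserving_symm_measurableEquiv_toLp_prod ℂ (EuclideanSpace ℝ (Fin k))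

theorem eW_apply (k : ℕ) (x : WithLp 2 (MS k)) : eW k x = WithLp.ofLp x := rfl

theorem dM_eW (k : ℕ) (x y : WithLp 2 (MS k)) : dM (eW k x) (eW k y) = ‖x - y‖ := by
  rw [WithLp.prod_norm_eq_of_L2]
  rfl

theorem tripleCost_eW (k : ℕ) (s : ℝ) (x y z : WithLp 2 (MS k)) :
    tripleCost s (x, y, z) = tripleCostM s (eW k x, eW k y, eW k z) := by
  simp only [tripleCost, tripleCostM, pairCost, pairCostM, dM_eW]

theorem sqrt_add_of_mul_eq_zero {a b : ℝ} (_ha : 0 ≤ a) (_hb : 0 ≤ b) (h : a * b = 0) :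
    Real.sqrt (a + b) = Real.sqrt a + Real.sqrt b := by
  rcases mul_eq_zero.1 h with h | h <;> simp [h]

open Crest.Agent.Helper52.OT3 in
/-- the statement of S0175 on the model space -/
theorem model_goal (k : ℕ) (s : ℝ) (hs : 0 < s) : Goal (WithLp 2 (MS k)) s := by
  obtain ⟨w2, ε, hp⟩ := Crest.Agent.Helper44.exists_goodParams s hs
  have hε := hp.hε
  have : StandardBorelSpace ↥(Ybase k ε) := (Crest.Agent.Helper35.measurableSet_Ybase ε hε).standardBorel
  have : IsFiniteMeasure (nuG k ε) := ⟨by rw [Crest.Agent.Helper35.nuG_univ ε hε]; norm_num⟩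
  have hH := geom_hyp (k := k) s w2 ε hp
  obtain ⟨ρB, hB0, hBs, hBq, hBc, hdisj, hμ⟩ := Crest.Agent.Helper24.geom_measure (k := k) s w2 ε hp
  -- transfer to the L² product
  set e := eW k with he
  have hH' := Crest.Agent.Helper4.twoShellHyp_transfer (nuG k ε) (PhiA ε) (PhiB s w2 ε) (gG s w2 ε)
    (tripleCostM s) (uG s w2 ε) hH e (tripleCost s) (tripleCost_eW k s)
  set ΦA' : ↥(Ybase k ε) × ℝ → WithLp 2 (MS k) := fun p => e.symm (PhiA ε p) with hΦA'
  set ΦB' : ↥(Ybase k ε) × ℝ → WithLp 2 (MS k) := fun p => e.symm (PhiB s w2 ε p) with hΦB'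
  -- the density
  set ρM : MS k → ℝ := fun x => rhoA ε x + ρB x with hρM
  set ρ : WithLp 2 (MS k) → ℝ := fun x => ρM (e x) with hρ
  have hmeas : measOfDensity ρ = tsμ (nuG k ε) ΦA' ΦB' := by
    have h1 : tsμ (nuG k ε) ΦA' ΦB' = (tsμ (nuG k ε) (PhiA ε) (PhiB s w2 ε)).map e.symm := by
      unfold tsμ
      rw [Measure.map_add _ _ e.symm.measurable, Measure.map_smul,
        Measure.map_map e.symm.measurable hH.measA, Measure.map_map e.symm.measurable hH.measB]
      rfl
    rw [h1, hμ, measOfDensity_map_equiv e.symm (eW_mp k).symm]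
    rfl
  have hρ0 : ∀ x, 0 ≤ ρ x := fun x => add_nonneg (Crest.Agent.Helper24.rhoA_nonneg ε hε _) (hB0 _)
  have hρM_smooth : ContDiff ℝ ∞ ρM := (Crest.Agent.Helper24.rhoA_contDiff ε hε).add hBs
  have he_smooth : ContDiff ℝ ∞ (fun x : WithLp 2 (MS k) => e x) :=
    (WithLp.prodContinuousLinearEquiv 2 ℝ ℂ (EuclideanSpace ℝ (Fin k))).contDiff
  have hρ_smooth : ContDiff ℝ ∞ ρ := hρM_smooth.comp he_smooth
  have hρM_cs : HasCompactSupport ρM := (Crest.Agent.Helper24.rhoA_hasCompactSupport ε hε).add hBc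
  have hρ_cs : HasCompactSupport ρ := by
    have := hρM_cs.comp_homeomorph
      (WithLp.prodContinuousLinearEquiv 2 ℝ ℂ (EuclideanSpace ℝ (Fin k))).toHomeomorph
    exact this
  have hsqrt : ContDiff ℝ ∞ (fun x => Real.sqrt (ρ x)) := by
    have h2 : (fun x => Real.sqrt (ρ x)) =
        (fun x : MS k => Real.sqrt (rhoA ε x) + Real.sqrt (ρB x)) ∘ (fun x => e x) := by
      funext x
      exact sqrt_add_of_mul_eq_zero (Crest.Agent.Helper24.rhoA_nonneg ε hε _) (hB0 _) (hdisj _)
    rw [h2]
    exact ((Crest.Agent.Helper24.rhoA_sqrt_contDiff ε hε).add hBq).comp he_smooth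
  have hint : ∫ x, ρ x = 1 := by
    have hi : Integrable ρ := hρ_smooth.continuous.integrable_of_hasCompactSupport hρ_cs
    have h1 : measOfDensity ρ univ = 1 := by
      rw [hmeas]
      exact Crest.Agent.Helper62.ts_univ (nuG k ε) ΦA' ΦB' (gG s w2 ε) (tripleCost s)
        (fun x => uG s w2 ε (e x)) hH'
    unfold measOfDensity at h1
    rw [withDensity_apply _ MeasurableSet.univ, Measure.restrict_univ,
      ← ofReal_integral_eq_lintegral_ofReal hi (Eventually.of_forall hρ0)] at h1
    have := congrArg ENNReal.toReal h1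
    rwa [ENNReal.toReal_ofReal (integral_nonneg hρ0), ENNReal.toReal_one] at this
  obtain ⟨π₀, hπ₀⟩ := Crest.Agent.Helper35.twoShell (nuG k ε) ΦA' ΦB' (gG s w2 ε) (tripleCost s)
    (fun x => uG s w2 ε (e x)) hH'
  refine ⟨ρ, hρ0, hρ_smooth, hρ_cs, hsqrt, hint, π₀, ?_⟩
  rw [hmeas]
  exact hπ₀

end Crest.Agent.Helper32
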